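import Vale.Agent.P359.Limit
import Vale.Agent.P359.Spec
import Vale.Agent.P359.Kernel

/-! Uniform spectral gap of the spherical Laughlin Hamiltonian at filling one third. -/

namespace Vale.Agent.Results.P359.Gap

open Vale.Agent.P359

theorem result : ∃ δ : ℝ, 0 < δ ∧ ∃ N₀ : ℕ, ∀ N : ℕ, N₀ ≤ N →
    ∀ ψ : Tens (3 * (N - 1)) N, Antisym ψ →
      δ * reInner ψ (ψ - lineProj (laughlin N) ψ) ≤ reInner ψ (ham ψ) := by
  obtain ⟨Q0, h⟩ := fam_gap
  refine ⟨1 / 50, by norm_num, Q0 + 4, fun N hN ψ hψ => ?_⟩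
  obtain ⟨m, rfl⟩ : ∃ m, N = m + 4 := ⟨N - 4, by omega⟩
  exact gap_of_fam (by omega) (1 / 50) (by norm_num) (h _ (by omega) m) _
    (fun φ h1 h2 => ker_sub (by omega) φ h1 h2) ψ hψ

end Vale.Agent.Results.P359.Gap
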